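import Vale.Agent.P032.R2.H962.SilDefs2

/-!
# P032: a silent colour: the finite statement with two directions

Only the places `0`, `1`, `3`, `4` of the word are used: `96` states in `16` classes.
-/

set_option autoImplicit false

namespace Vale.Agent.P032.R2.H789

open Vale.Agent.P032.R2.H962

/-- the states `(P0, P1, P3, P4, kappa 0, kappa 1, class)`, letters as masks -/
def tab : List (ℕ × ℕ × ℕ × ℕ × ℕ × ℕ × ℕ) :=
 [(18, 5, 5, 18, 3, 3, 13), (18, 5, 5, 10, 3, 4, 5), (18, 5, 20, 10, 0, 4, 5), (18, 5, 20, 10, 3, 4, 5), (18, 5, 9, 18, 2, 3, 1),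
  (18, 5, 9, 20, 2, 1, 1), (18, 5, 9, 20, 2, 3, 1), (18, 5, 17, 10, 2, 4, 5), (18, 5, 17, 10, 3, 4, 5), (18, 9, 5, 18, 3, 2, 7),
  (18, 9, 5, 10, 3, 2, 7), (18, 9, 5, 10, 3, 4, 5), (18, 9, 10, 20, 0, 1, 8), (18, 9, 10, 20, 2, 1, 1), (18, 9, 9, 18, 2, 2, 0),
  (18, 9, 9, 20, 2, 1, 1), (5, 18, 18, 5, 3, 3, 14), (5, 18, 18, 9, 3, 2, 10), (5, 18, 10, 5, 4, 3, 15), (5, 18, 10, 20, 4, 0, 15),
  (5, 18, 10, 20, 4, 3, 15), (5, 18, 10, 17, 4, 2, 15), (5, 18, 10, 17, 4, 3, 15), (5, 18, 20, 9, 1, 2, 10), (5, 18, 20, 9, 3, 2, 10),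
  (5, 10, 18, 5, 3, 4, 8), (5, 10, 18, 9, 3, 2, 10), (5, 10, 18, 9, 3, 4, 8), (5, 10, 10, 5, 4, 4, 2), (5, 10, 10, 20, 4, 0, 15),
  (5, 10, 10, 17, 4, 2, 15), (5, 10, 9, 20, 1, 0, 15), (5, 10, 9, 20, 4, 0, 15), (10, 5, 5, 18, 4, 3, 12), (10, 5, 5, 10, 4, 4, 3),
  (10, 5, 20, 10, 0, 4, 5), (10, 5, 20, 9, 0, 1, 5), (10, 5, 20, 9, 0, 4, 5), (10, 5, 9, 18, 2, 3, 1), (10, 5, 9, 18, 4, 3, 12),
  (10, 5, 17, 10, 2, 4, 5), (10, 20, 18, 9, 0, 1, 5), (10, 20, 18, 9, 2, 1, 11), (10, 20, 5, 18, 4, 0, 12), (10, 20, 5, 18, 4, 3, 12),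
  (10, 20, 5, 10, 4, 0, 12), (10, 20, 20, 10, 0, 0, 4), (10, 20, 20, 9, 0, 1, 5), (10, 20, 17, 10, 2, 0, 12), (10, 17, 5, 18, 4, 2, 12),
  (10, 17, 5, 18, 4, 3, 12), (10, 17, 5, 10, 4, 2, 12), (10, 17, 20, 10, 0, 2, 5), (10, 17, 20, 9, 0, 1, 5), (10, 17, 20, 9, 0, 2, 5),
  (10, 17, 17, 10, 2, 2, 13), (20, 10, 18, 5, 0, 4, 8), (20, 10, 18, 5, 3, 4, 8), (20, 10, 10, 5, 0, 4, 8), (20, 10, 10, 20, 0, 0, 6),
  (20, 10, 10, 17, 0, 2, 8), (20, 10, 9, 18, 1, 0, 15), (20, 10, 9, 18, 1, 2, 7), (20, 10, 9, 20, 1, 0, 15), (20, 9, 5, 18, 1, 2, 7),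
  (20, 9, 5, 18, 3, 2, 7), (20, 9, 10, 5, 0, 1, 8), (20, 9, 10, 5, 0, 4, 8), (20, 9, 10, 20, 0, 1, 8), (20, 9, 10, 17, 0, 1, 8),
  (20, 9, 10, 17, 0, 2, 8), (20, 9, 9, 18, 1, 2, 7), (20, 9, 9, 20, 1, 1, 14), (9, 18, 18, 5, 2, 3, 11), (9, 18, 18, 9, 2, 2, 9),
  (9, 18, 10, 5, 2, 3, 11), (9, 18, 10, 5, 4, 3, 15), (9, 18, 20, 10, 1, 0, 12), (9, 18, 20, 10, 1, 2, 10), (9, 18, 20, 9, 1, 2, 10),
  (9, 20, 18, 5, 2, 1, 11), (9, 20, 18, 5, 2, 3, 11), (9, 20, 18, 9, 2, 1, 11), (9, 20, 5, 10, 1, 0, 12), (9, 20, 5, 10, 4, 0, 12),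
  (9, 20, 20, 10, 1, 0, 12), (9, 20, 20, 9, 1, 1, 13), (9, 20, 17, 10, 1, 0, 12), (9, 20, 17, 10, 2, 0, 12), (17, 10, 18, 5, 2, 4, 8),
  (17, 10, 18, 5, 3, 4, 8), (17, 10, 10, 5, 2, 4, 8), (17, 10, 10, 20, 2, 0, 15), (17, 10, 10, 17, 2, 2, 14), (17, 10, 9, 20, 1, 0, 15),
  (17, 10, 9, 20, 2, 0, 15)]

/-- possible contacts at a mask (table) -/
def avm (V : ℕ) : ℕ := Nat.shiftRight 1421304955399057675506065152463268434903039 (5 * V) % 32

/-- class of a colour under a mask of contacts (table) -/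
def kt (M x : ℕ) : ℕ := Nat.shiftRight 6668014432879854274079840399023780434454463181433194323733099225858170272095625975177358419690576405407043308946124411208727714351823762766072178063987682621840149149024646679243259183834247608033983683122278931713458448471756382272118591553 (5 * (5 * M + x)) % 32

/-- the set of a mask -/
def fs (K : ℕ) : Finset (Fin 5) := Finset.univ.filter fun i => K.testBit i.val = true

instance (x : Fin 5) (n : ℕ) : Decidable (inm x n) := by unfold inm; infer_instance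

instance (i : Fin 5) (V : ℕ) : Decidable (av i V) := by unfold av; infer_instance

theorem av_avm : ∀ V < 32, ∀ i : Fin 5, av i V → (avm V).testBit i.val = true := by decide

theorem avm_lt (V : ℕ) : avm V < 32 := Nat.mod_lt _ (by norm_num)

theorem kt_self : ∀ M < 32, ∀ x : Fin 5, (kt M x.val).testBit x.val = true := by decide

theorem kt_closed : ∀ M < 32, ∀ x i : Fin 5, M.testBit i.val = true →
    ((kt M x.val).testBit i.val = true ↔ (kt M x.val).testBit (i + 1).val = true) := by decide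

theorem cn_kt {V V' : ℕ} (hV : V < 32) (hV' : V' < 32) {x y : Fin 5} (h : Cn V V' x y) :
    (kt (Nat.land (avm V) (avm V')) x.val).testBit y.val = true := by
  have hM : Nat.land (avm V) (avm V') < 32 :=
    lt_of_le_of_lt Nat.and_le_left (avm_lt V)
  have h1 := h (fs (kt (Nat.land (avm V) (avm V')) x.val)) ?_ ?_
  · simpa [fs] using h1
  · intro i h2 h3
    have h4 : (Nat.land (avm V) (avm V')).testBit i.val = true := by
      have h5 := av_avm V hV i h2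
      have h6 := av_avm V' hV' i h3
      have h7 : (Nat.land (avm V) (avm V')).testBit i.val
          = ((avm V).testBit i.val && (avm V').testBit i.val) := Nat.testBit_and _ _ _
      rw [h7, h5, h6]; rfl
    have h5 := kt_closed _ hM x i h4
    simpa [fs] using h5
  · simpa [fs] using kt_self _ hM x

/-- two entries: same class or not related -/
def chk : (ℕ × ℕ × ℕ × ℕ × ℕ × ℕ × ℕ) → (ℕ × ℕ × ℕ × ℕ × ℕ × ℕ × ℕ) → Bool
  | (a, b, c, d, x, y, k), (a', b', c', d', x', y', k') =>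
    Nat.beq k k' || !(Nat.ble (pc (Nat.lor a a')) 3) || !(Nat.ble (pc (Nat.lor b b')) 3) ||
    !(Nat.ble (pc (Nat.lor c c')) 3) || !(Nat.ble (pc (Nat.lor d d')) 3) ||
    (Nat.beq (pc (Nat.lor a a')) 3 && Nat.beq (pc (Nat.lor b b')) 3 &&
      !(Nat.ble (pc (Nat.land (Nat.lor a a') (Nat.lor b b'))) 1)) ||
    (Nat.beq (pc (Nat.lor c c')) 3 && Nat.beq (pc (Nat.lor d d')) 3 &&
      !(Nat.ble (pc (Nat.land (Nat.lor c c') (Nat.lor d d'))) 1)) ||
    !(Nat.testBit (kt (Nat.land (avm (Nat.lor a a')) (avm (Nat.lor c c'))) x) x') ||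
    !(Nat.testBit (kt (Nat.land (avm (Nat.lor b b')) (avm (Nat.lor d d'))) y) y')

/-- two entries, one step later: not the same class -/
def chs : (ℕ × ℕ × ℕ × ℕ × ℕ × ℕ × ℕ) → (ℕ × ℕ × ℕ × ℕ × ℕ × ℕ × ℕ) → Bool
  | (_, b, _, d, _, y, k), (a', _, c', _, x', _, k') =>
    !(Nat.beq b a') || !(Nat.beq d c') || !(Nat.beq y x') || !(Nat.beq k' k)

set_option maxRecDepth 100000 in
theorem all_chk : (tab.all fun r => tab.all fun s => chk r s) = true := by decide +kernel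

set_option maxRecDepth 100000 in
theorem all_chs : (tab.all fun r => tab.all fun s => chs r s) = true := by decide +kernel

/-- look up the class -/
def look (a b c d x y : ℕ) : ℕ :=
  ((tab.find? fun r => Nat.beq r.1 a && Nat.beq r.2.1 b && Nat.beq r.2.2.1 c && Nat.beq r.2.2.2.1 d
    && Nat.beq r.2.2.2.2.1 x && Nat.beq r.2.2.2.2.2.1 y).map fun r => r.2.2.2.2.2.2).getD 99

/-- membership as a Boolean -/
def memb (a b c d x y k : ℕ) : Bool :=
  tab.any fun r => Nat.beq r.1 a && Nat.beq r.2.1 b && Nat.beq r.2.2.1 c && Nat.beq r.2.2.2.1 d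
    && Nat.beq r.2.2.2.2.1 x && Nat.beq r.2.2.2.2.2.1 y && Nat.beq r.2.2.2.2.2.2 k

set_option maxRecDepth 100000 in
theorem memb_all : ∀ a b c d : Fin 6, (lm a).land (lm b) = 0 → (lm c).land (lm d) = 0 →
    (∃ e : Fin 6, (lm b).land (lm e) = 0 ∧ (lm e).land (lm c) = 0) →
    (∃ e : Fin 6, (lm d).land (lm e) = 0 ∧ (lm e).land (lm a) = 0) →
    ∀ x y : Fin 5, ¬ inm x (lm a) → ¬ inm x (lm c) → ¬ inm y (lm b) → ¬ inm y (lm d) →
      memb (lm a) (lm b) (lm c) (lm d) x.val y.val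
        (look (lm a) (lm b) (lm c) (lm d) x.val y.val) = true := by
  decide +kernel

theorem eq_of {a b : ℕ} (h : Nat.beq a b = true) : a = b := Nat.eq_of_beq_eq_true h

theorem not_ble {a b : ℕ} (h : Nat.ble a b = false) (h' : a ≤ b) : False := by
  have h1 := Nat.ble_eq_true_of_le h'
  rw [h] at h1
  exact Bool.false_ne_true h1

theorem not_beq {a b : ℕ} (h : Nat.beq a b = false) (h' : a = b) : False := by
  subst h'
  have h1 := Nat.beq_refl a
  rw [h] at h1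
  exact Bool.false_ne_true h1

theorem mem_of_memb {a b c d x y k : ℕ} (h : memb a b c d x y k = true) :
    (a, b, c, d, x, y, k) ∈ tab := by
  unfold memb at h
  rw [List.any_eq_true] at h
  obtain ⟨⟨a', b', c', d', x', y', k'⟩, h1, h2⟩ := h
  simp only [Bool.and_eq_true] at h2
  obtain ⟨⟨⟨⟨⟨⟨h3, h4⟩, h5⟩, h6⟩, h7⟩, h8⟩, h9⟩ := h2
  obtain rfl := eq_of h3
  obtain rfl := eq_of h4
  obtain rfl := eq_of h5
  obtain rfl := eq_of h6
  obtain rfl := eq_of h7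
  obtain rfl := eq_of h8
  obtain rfl := eq_of h9
  exact h1

/-- the class of a state -/
def inv (w : Fin 6 → Fin 6) (κ : Fin 2 → Fin 5) : ℕ :=
  look (lm (w 0)) (lm (w 1)) (lm (w 3)) (lm (w 4)) (κ 0).val (κ 1).val

theorem mem_tab {w : Fin 6 → Fin 6} {κ : Fin 2 → Fin 5} (h : St2 w κ) :
    (lm (w 0), lm (w 1), lm (w 3), lm (w 4), (κ 0).val, (κ 1).val, inv w κ) ∈ tab := by
  have h0 := h.leg 0
  have h1 := h.leg 1
  have h2 := h.leg 2
  have h3 := h.leg 3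
  have h4 := h.leg 4
  have h5 := h.leg 5
  have k0 := h.kap 0
  have k1 := h.kap 1
  exact mem_of_memb (memb_all (w 0) (w 1) (w 3) (w 4) h0 h3 ⟨w 2, h1, h2⟩ ⟨w 5, h4, h5⟩
    (κ 0) (κ 1) k0.1 k0.2 k1.1 k1.2)

theorem lm_lt : ∀ a b : Fin 6, (lm a).lor (lm b) < 32 := by decide

/-- **The finite statement with two directions.** -/
theorem fin2 : Fin2 := by
  refine ⟨inv, ?_, ?_⟩
  · intro w w' κ κ' hs hs' hn hd
    have hr := mem_tab hs
    have hr' := mem_tab hs'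
    have h := List.all_eq_true.mp (List.all_eq_true.mp all_chk _ hr) _ hr'
    have d0 := cn_kt (lm_lt _ _) (lm_lt _ _) (hd 0)
    have d1 := cn_kt (lm_lt _ _) (lm_lt _ _) (hd 1)
    have u0 := hn.1 0
    have u1 := hn.1 1
    have u3 := hn.1 3
    have u4 := hn.1 4
    have v0 := hn.2 0
    have v3 := hn.2 3
    simp only [chk, Bool.or_eq_true, Bool.and_eq_true, Bool.not_eq_true'] at h
    rcases h with (((((((h | h) | h) | h) | h) | h) | h) | h) | h
    · exact eq_of h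
    · exact (not_ble h u0).elim
    · exact (not_ble h u1).elim
    · exact (not_ble h u3).elim
    · exact (not_ble h u4).elim
    · exact (not_ble h.2 (v0 (eq_of h.1.1) (eq_of h.1.2))).elim
    · exact (not_ble h.2 (v3 (eq_of h.1.1) (eq_of h.1.2))).elim
    · exact (Bool.false_ne_true (h.symm.trans d0)).elim
    · exact (Bool.false_ne_true (h.symm.trans d1)).elim
  · intro w κ x hs hs' he
    have hr := mem_tab hs
    have hr' := mem_tab hs'
    have h := List.all_eq_true.mp (List.all_eq_true.mp all_chs _ hr) _ hr'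
    simp only [chs, Bool.or_eq_true, Bool.not_eq_true'] at h
    rcases h with ((h | h) | h) | h
    · exact not_beq h rfl
    · exact not_beq h rfl
    · exact not_beq h rfl
    · exact not_beq h he

end Vale.Agent.P032.R2.H789
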